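import Vale.Agent.Lib.P161.Ex.Defs

namespace Vale.Agent.Lib.P161

open MeasureTheory ProbabilityTheory

variable {V : Type*} {G : SimpleGraph V}

theorem measurable_PhiBit : Measurable (PhiBit (V := V)) := by
  rw [measurable_pi_iff]
  intro v
  have h1 : MeasurableSet {U : V → unitInterval | U v ≤ half} :=
    measurableSet_le (measurable_pi_apply v) measurable_const
  have h2 : (fun U : V → unitInterval => PhiBit U v)
      = fun U => if U ∈ {U : V → unitInterval | U v ≤ half} then true else false := by
    funext U
    by_cases h : U v ≤ half
    · simp [PhiBit, h]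
    · simp [PhiBit, h]
  rw [h2]
  exact Measurable.ite h1 measurable_const measurable_const

theorem isFIID_PhiBit : IsFIID G ((iidLaw V).map PhiBit) := by
  refine ⟨PhiBit, measurable_PhiBit, ?_, rfl⟩
  intro g
  exact Filter.Eventually.of_forall fun U => rfl

end Vale.Agent.Lib.P161
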