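import Vale.Agent.Lib.P161.Ex.BitMono
import Vale.Agent.Lib.P161.Ex.Bit

namespace Vale.Agent.Lib.P161

open MeasureTheory ProbabilityTheory

variable {V : Type*} {G : SimpleGraph V}

private lemma measurable_sg' : Measurable sg := Measurable.of_discrete

private instance instProbIid (V : Type*) : IsProbabilityMeasure (iidLaw V) := by
  unfold iidLaw; infer_instance

private lemma not_adj_opG_zero (u v : V) :
    ¬ (opG G (0 : unitInterval) (fun _ => (1 : unitInterval))).Adj u v := by
  intro h
  have h1 : (1 : unitInterval) ≤ 0 := h.2.1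
  have h2 : ((1 : unitInterval) : ℝ) ≤ ((0 : unitInterval) : ℝ) := h1
  norm_num at h2

private theorem moments_PhiBit (hG : G.IsAcyclic) (o : V) (S : Finset (Option G.edgeSet)) :
    ∫ U, ∏ i ∈ S, sg (obs G o i (PhiBit U)) ∂(iidLaw V) = ∏ i ∈ S, mom (0 : ℝ) i := by
  classical
  rcases S.eq_empty_or_nonempty with rfl | ⟨i, hi⟩
  · simp
  · have hbad : none ∈ S ∨ ∃ ed, some ed ∈ S ∧
        ¬ (opG G (0 : unitInterval) (fun _ => (1 : unitInterval))).Adj (ends ed).1 (ends ed).2 := by
      cases i with
      | none => exact Or.inl hi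
      | some ed => exact Or.inr ⟨ed, hi, not_adj_opG_zero _ _⟩
    obtain ⟨k, hk⟩ := parity (s := (0 : unitInterval)) hG (fun _ => (1 : unitInterval))
      (fun x => x) (fun x y hxy => by
        have hxy' : x = y := hxy
        subst hxy'
        exact SimpleGraph.Reachable.refl _) o S hbad
    have hcount : Odd ((∑ i ∈ S, pts G o i).count k) := by
      rw [Multiset.count_eq_card_filter_eq]
      have : (∑ i ∈ S, pts G o i).filter (fun x => k = x) =
          (∑ i ∈ S, pts G o i).filter (fun x => x = k) := by
        refine Multiset.filter_congr ?_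
        intro x _
        exact eq_comm
      rw [this]
      exact hk
    have hzero : ∏ i ∈ S, mom (0 : ℝ) i = 0 := by
      refine Finset.prod_eq_zero hi ?_
      cases i <;> rfl
    rw [hzero]
    simp only [chi_eq_mono]
    exact bit_mono _ k hcount

theorem isFreeIsing_PhiBit (hG : G.IsAcyclic) : IsFreeIsing G 0 ((iidLaw V).map PhiBit) := by
  have hΨ : Measurable (PhiBit (V := V)) := measurable_PhiBit
  have hprob : IsProbabilityMeasure ((iidLaw V).map (PhiBit (V := V))) :=
    Measure.isProbabilityMeasure_map hΨ.aemeasurable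
  refine ⟨hprob, fun o => ?_⟩
  have hmom : ∀ S : Finset (Option G.edgeSet),
      ∫ σ, ∏ i ∈ S, sg (obs G o i σ) ∂((iidLaw V).map (PhiBit (V := V))) =
        ∏ i ∈ S, mom (0 : ℝ) i := by
    intro S
    have hmeas : Measurable (fun σ : V → Bool => ∏ i ∈ S, sg (obs G o i σ)) :=
      Finset.measurable_prod S fun i _ => measurable_sg'.comp (measurable_obs G o i)
    rw [integral_map hΨ.aemeasurable hmeas.aestronglyMeasurable]
    exact moments_PhiBit hG o S
  obtain ⟨hind, hmarg⟩ := indep_of_moments ((iidLaw V).map (PhiBit (V := V))) (obs G o)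
    (measurable_obs G o) (mom (0 : ℝ)) hmom
  refine ⟨hind, ?_, fun ed => ?_⟩
  · have := hmarg none
    simpa [mom] using this
  · have := hmarg (some ed)
    simpa [mom] using this

theorem freeIsingIsFIID_zero (hG : G.IsAcyclic) : FreeIsingIsFIID G 0 :=
  ⟨_, isFreeIsing_PhiBit hG, isFIID_PhiBit⟩

end Vale.Agent.Lib.P161
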