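import Vale.Agent.Lib.P161.Ex.Defs

namespace Vale.Agent.Lib.P161

open MeasureTheory ProbabilityTheory

variable {V : Type*} {G : SimpleGraph V}

private theorem sg_half_eq :
    (fun u : unitInterval => sg (decide (u ≤ half)))
      = fun u => 2 * (Set.Iic half).indicator (fun _ => (1 : ℝ)) u - 1 := by
  funext u
  by_cases h : u ≤ half
  · have hm : u ∈ Set.Iic half := h
    simp only [sg, h, decide_true, if_true, Set.indicator_of_mem hm]
    norm_num
  · have hm : u ∉ Set.Iic half := h
    simp only [sg, h, decide_false, Set.indicator_of_notMem hm]
    norm_num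

theorem measurable_sg_half : Measurable (fun u : unitInterval => sg (decide (u ≤ half))) := by
  rw [sg_half_eq]
  exact ((measurable_const.indicator measurableSet_Iic).const_mul 2).sub_const 1

theorem integral_sg_half :
    ∫ u, sg (decide (u ≤ half)) ∂(volume : Measure unitInterval) = 0 := by
  have h0 : (fun u : unitInterval => sg (decide (u ≤ half)))
      = fun u => 2 * (Set.Iic half).indicator (fun _ => (1 : ℝ)) u - 1 := sg_half_eq
  have hint : Integrable (fun u : unitInterval => (Set.Iic half).indicator (fun _ => (1 : ℝ)) u)
      (volume : Measure unitInterval) :=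
    (integrable_const (1 : ℝ)).indicator measurableSet_Iic
  have hv : (volume : Measure unitInterval).real (Set.Iic half) = 1 / 2 := by
    have h1 : (volume : Measure unitInterval) (Set.Iic half) = ENNReal.ofReal half :=
      volume_le half
    rw [Measure.real, h1]
    have : ((half : unitInterval) : ℝ) = 1 / 2 := rfl
    rw [this, ENNReal.toReal_ofReal (by norm_num)]
  have h1 : ∫ u, (Set.Iic half).indicator (fun _ => (1 : ℝ)) u ∂(volume : Measure unitInterval)
      = 1 / 2 := by
    rw [integral_indicator measurableSet_Iic]
    simp [hv]
  calc ∫ u, sg (decide (u ≤ half)) ∂(volume : Measure unitInterval)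
      = ∫ u, (2 * (Set.Iic half).indicator (fun _ => (1 : ℝ)) u - 1)
          ∂(volume : Measure unitInterval) := by
        exact congrArg (fun f => ∫ u, f u ∂(volume : Measure unitInterval)) h0
    _ = 2 * (1 / 2) - 1 := by
        rw [integral_sub (hint.const_mul 2) (integrable_const _), integral_const_mul, h1]
        simp
    _ = 0 := by norm_num

end Vale.Agent.Lib.P161
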