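import Vale.Agent.Lib.P161.Ex.Coord
import Vale.Agent.Lib.P161.Ex.Half

namespace Vale.Agent.Lib.P161

open MeasureTheory ProbabilityTheory

variable {V : Type*} {G : SimpleGraph V}

private lemma sg_abs (b : Bool) : |sg b| = 1 := by
  cases b <;> simp [sg]

private lemma sg_pow_odd (b : Bool) {n : ℕ} (hn : Odd n) : sg b ^ n = sg b := by
  cases b
  · simp [sg, hn.neg_one_pow]
  · simp [sg]

theorem bit_mono [DecidableEq V] (M : Multiset V) (k : V) (hk : Odd (M.count k)) :
    ∫ U, mono M (PhiBit U) ∂(iidLaw V) = 0 := by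
  have h1 : ∀ U : V → unitInterval, mono M (PhiBit U) =
      ∏ y ∈ M.toFinset, (fun (y : V) (u : unitInterval) =>
        sg (decide (u ≤ half)) ^ (M.count y)) y (U y) := by
    intro U
    unfold mono
    rw [Finset.prod_multiset_map_count]
    rfl
  simp_rw [h1]
  rw [integral_coord_prod M.toFinset
    (fun (y : V) (u : unitInterval) => sg (decide (u ≤ half)) ^ (M.count y))
    (fun y => measurable_sg_half.pow_const _)
    (fun y u => by rw [abs_pow, sg_abs, one_pow])]
  have hkM : k ∈ M.toFinset := by
    rw [Multiset.mem_toFinset, ← Multiset.count_pos]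
    exact hk.pos
  apply Finset.prod_eq_zero hkM
  have h2 : ∀ u : unitInterval, sg (decide (u ≤ half)) ^ (M.count k) = sg (decide (u ≤ half)) :=
    fun u => sg_pow_odd _ hk
  simp_rw [h2]
  exact integral_sg_half

end Vale.Agent.Lib.P161
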