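import Vale.Agent.Lib.P161.Ex.Coord
import Vale.Agent.Lib.P161.Ex.Half

namespace Vale.Agent.Lib.P161

open MeasureTheory ProbabilityTheory

variable {V : Type*} {G : SimpleGraph V}

theorem measurable_PhiConst (o₀ : V) : Measurable (PhiConst o₀) := by
  refine measurable_pi_iff.mpr (fun _ => ?_)
  apply measurable_to_bool
  have h : (fun U : V → unitInterval => decide (U o₀ ≤ half)) ⁻¹' {true} = {U | U o₀ ≤ half} := by
    ext U
    simp
  show MeasurableSet ((fun U : V → unitInterval => decide (U o₀ ≤ half)) ⁻¹' {true})
  rw [h]
  exact measurableSet_le (measurable_pi_apply o₀) measurable_const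

private lemma integral_bit (o₀ : V) : ∫ U, sg (decide (U o₀ ≤ half)) ∂(iidLaw V) = 0 := by
  have h := integral_coord_prod ({o₀} : Finset V) (fun _ u => sg (decide (u ≤ half)))
    (fun _ => measurable_sg_half) (fun _ u => by unfold sg; split_ifs <;> norm_num)
  simpa [integral_sg_half] using h

theorem isFreeIsing_PhiConst (o₀ : V) : IsFreeIsing G 1 ((iidLaw V).map (PhiConst o₀)) := by
  classical
  have i1 : IsProbabilityMeasure (iidLaw V) := by unfold iidLaw; infer_instance
  have i2 : IsProbabilityMeasure ((iidLaw V).map (PhiConst o₀)) :=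
    Measure.isProbabilityMeasure_map (measurable_PhiConst o₀).aemeasurable
  refine ⟨i2, fun o => ?_⟩
  have hmom : ∀ S : Finset (Option G.edgeSet),
      ∫ σ, ∏ i ∈ S, sg (obs G o i σ) ∂((iidLaw V).map (PhiConst o₀)) = ∏ i ∈ S, mom 1 i := by
    intro S
    have hmeas : Measurable (fun σ : V → Bool => ∏ i ∈ S, sg (obs G o i σ)) := by
      apply Finset.measurable_prod
      intro i _
      exact (Measurable.of_discrete (f := sg)).comp (measurable_obs G o i)
    rw [integral_map (measurable_PhiConst o₀).aemeasurable hmeas.aestronglyMeasurable]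
    by_cases hS : none ∈ S
    · have h1 : ∀ U, ∏ i ∈ S, sg (obs G o i (PhiConst o₀ U)) = sg (decide (U o₀ ≤ half)) := by
        intro U
        rw [← Finset.mul_prod_erase S _ hS, Finset.prod_eq_one, mul_one]
        · rfl
        · intro i hi
          rw [Finset.mem_erase] at hi
          cases i with
          | none => exact absurd rfl hi.1
          | some e => simp [obs, PhiConst, sg]
      simp_rw [h1]
      rw [integral_bit, ← Finset.mul_prod_erase S _ hS]
      simp [mom]
    · have h1 : ∀ U, ∏ i ∈ S, sg (obs G o i (PhiConst o₀ U)) = 1 := by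
        intro U
        apply Finset.prod_eq_one
        intro i hi
        cases i with
        | none => exact absurd hi hS
        | some e => simp [obs, PhiConst, sg]
      simp_rw [h1]
      rw [Finset.prod_eq_one]
      · simp
      · intro i hi
        cases i with
        | none => exact absurd hi hS
        | some e => rfl
  obtain ⟨hind, hval⟩ := indep_of_moments _ (obs G o) (measurable_obs G o) (mom 1) hmom
  refine ⟨hind, ?_, fun e => ?_⟩
  · have h0 := hval none
    rw [show (1 + mom 1 (none : Option G.edgeSet)) / 2 = (1 : ℝ) / 2 by simp [mom]] at h0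
    exact h0
  · exact hval (some e)

end Vale.Agent.Lib.P161
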