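import Vale.Agent.Lib.P161.Ex.Defs

namespace Vale.Agent.Lib.P161

open MeasureTheory ProbabilityTheory

variable {V : Type*} {G : SimpleGraph V}

theorem integral_coord_prod (F : Finset V) (h : V → unitInterval → ℝ)
    (hm : ∀ y, Measurable (h y)) (hb : ∀ y u, |h y u| ≤ 1) :
    ∫ U, ∏ y ∈ F, h y (U y) ∂(iidLaw V) =
      ∏ y ∈ F, ∫ u, h y u ∂(volume : Measure unitInterval) := by
  have key := blocks_integral (ι := V) (K := F) (κ := fun _ => Unit)
    (fun p => (p.1 : V)) (by
      rintro ⟨a, ⟨⟩⟩ ⟨b, ⟨⟩⟩ hab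
      have : a = b := Subtype.ext hab
      subst this
      rfl)
    (fun k u => h k (u ())) (fun k => (hm k).comp (measurable_pi_apply ())) (fun k u => hb _ _)
  have h1 : ∀ k : F, ∫ u, h k (u ()) ∂(iidLaw Unit) =
      ∫ u, h k u ∂(volume : Measure unitInterval) := by
    intro k
    have h2 : (iidLaw Unit).map (fun u => u ()) = (volume : Measure unitInterval) :=
      Measure.infinitePi_map_eval (fun _ : Unit => (volume : Measure unitInterval)) ()
    rw [← h2, integral_map (measurable_pi_apply ()).aemeasurable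
      (hm k).aestronglyMeasurable]
  simp only [h1] at key
  rw [← Finset.prod_coe_sort F (fun y => ∫ u, h y u ∂(volume : Measure unitInterval)), ← key]
  congr 1
  ext U
  rw [← Finset.prod_coe_sort]

end Vale.Agent.Lib.P161
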