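import Vale.Agent.Lib.P161.Ex.Defs

namespace Vale.Agent.Lib.P161

open MeasureTheory ProbabilityTheory

variable {V : Type*} {G : SimpleGraph V}

private lemma mono_cons' (a : V) (M : Multiset V) (σ : V → Bool) :
    mono (a ::ₘ M) σ = sg (σ a) * mono M σ := by
  simp [mono]

/-- the indicator of a cylinder as a product -/
private noncomputable def wgt (b : V → Bool) (F : Finset V) (σ : V → Bool) : ℝ :=
  ∏ y ∈ F, ((1 + sg (b y) * sg (σ y)) / 2)

private lemma measurable_sgev (y : V) : Measurable (fun σ : V → Bool => sg (σ y)) :=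
  (Measurable.of_discrete (f := sg)).comp (measurable_pi_apply y)

private lemma measurable_wgt (b : V → Bool) (F : Finset V) : Measurable (wgt b F) := by
  unfold wgt
  exact Finset.measurable_prod F fun y _ =>
    ((measurable_const.add (measurable_const.mul (measurable_sgev y))).div_const 2)

open Classical in
private lemma wgt_eq (b : V → Bool) (F : Finset V) (σ : V → Bool) :
    wgt b F σ = if ∀ y ∈ F, σ y = b y then 1 else 0 := by
  unfold wgt
  split_ifs with h
  · apply Finset.prod_eq_one
    intro y hy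
    rw [h y hy, sg_mul_self]
    norm_num
  · push Not at h
    obtain ⟨y, hy, hne⟩ := h
    apply Finset.prod_eq_zero hy
    have h1 : sg (b y) * sg (σ y) = -1 := by
      cases hb : b y <;> cases hs : σ y <;> simp_all [sg]
    rw [h1]
    norm_num

private lemma abs_wgt_le (b : V → Bool) (F : Finset V) (σ : V → Bool) : |wgt b F σ| ≤ 1 := by
  classical
  rw [wgt_eq]
  split_ifs <;> simp

private lemma integrable_aux (ν : Measure (V → Bool)) [IsProbabilityMeasure ν] (b : V → Bool)
    (F : Finset V) (M : Multiset V) : Integrable (fun σ => mono M σ * wgt b F σ) ν := by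
  refine Integrable.of_bound ((measurable_mono M).mul (measurable_wgt b F)).aestronglyMeasurable 1
    (Filter.Eventually.of_forall fun σ => ?_)
  rw [Real.norm_eq_abs, abs_mul, abs_mono, one_mul]
  exact abs_wgt_le b F σ

private lemma key_cyl (μ μ' : Measure (V → Bool)) [IsProbabilityMeasure μ]
    [IsProbabilityMeasure μ']
    (h : ∀ M : Multiset V, ∫ σ, mono M σ ∂μ = ∫ σ, mono M σ ∂μ') (b : V → Bool) (F : Finset V) :
    ∀ M : Multiset V, ∫ σ, mono M σ * wgt b F σ ∂μ = ∫ σ, mono M σ * wgt b F σ ∂μ' := by
  classical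
  induction F using Finset.induction_on with
  | empty =>
    intro M
    simpa [wgt] using h M
  | insert a F ha ih =>
    intro M
    have hexp : ∀ σ, mono M σ * wgt b (insert a F) σ =
        (1 / 2) * (mono M σ * wgt b F σ) + (sg (b a) / 2) * (mono (a ::ₘ M) σ * wgt b F σ) := by
      intro σ
      unfold wgt
      rw [Finset.prod_insert ha, mono_cons']
      ring
    simp only [hexp]
    rw [integral_add ((integrable_aux μ b F M).const_mul _)
        ((integrable_aux μ b F (a ::ₘ M)).const_mul _),
      integral_add ((integrable_aux μ' b F M).const_mul _)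
        ((integrable_aux μ' b F (a ::ₘ M)).const_mul _),
      integral_const_mul, integral_const_mul, integral_const_mul, integral_const_mul, ih M,
      ih (a ::ₘ M)]

/-- the elementary cylinders -/
private def cyl (V : Type*) : Set (Set (V → Bool)) :=
  {s | ∃ (F : Finset V) (b : V → Bool), s = {σ | ∀ y ∈ F, σ y = b y}}

private lemma measurableSet_cyl (F : Finset V) (b : V → Bool) :
    MeasurableSet {σ : V → Bool | ∀ y ∈ F, σ y = b y} := by
  classical
  have h : {σ : V → Bool | ∀ y ∈ F, σ y = b y} = wgt b F ⁻¹' {1} := by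
    ext σ
    change (∀ y ∈ F, σ y = b y) ↔ wgt b F σ = 1
    rw [wgt_eq]
    split_ifs with h1
    · exact ⟨fun _ => rfl, fun _ => h1⟩
    · exact ⟨fun h2 => absurd h2 h1, fun h2 => absurd h2 (by norm_num)⟩
  rw [h]
  exact measurable_wgt b F (measurableSet_singleton 1)

private lemma isPiSystem_cyl : IsPiSystem (cyl V) := by
  classical
  rintro _ ⟨F, b, rfl⟩ _ ⟨F', b', rfl⟩ ⟨σ0, h0, h0'⟩
  refine ⟨F ∪ F', σ0, ?_⟩
  ext σ
  constructor
  · rintro ⟨h1, h2⟩ y hy
    rcases Finset.mem_union.1 hy with hy | hy
    · rw [h1 y hy, h0 y hy]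
    · rw [h2 y hy, h0' y hy]
  · intro hh
    exact ⟨fun y hy => by rw [hh y (Finset.mem_union_left _ hy), h0 y hy],
      fun y hy => by rw [hh y (Finset.mem_union_right _ hy), h0' y hy]⟩

private lemma generateFrom_cyl :
    (MeasurableSpace.pi : MeasurableSpace (V → Bool)) = MeasurableSpace.generateFrom (cyl V) := by
  apply le_antisymm
  · refine iSup_le fun a => ?_
    rw [← measurable_iff_comap_le]
    apply @measurable_to_bool _ (MeasurableSpace.generateFrom (cyl V))
    apply MeasurableSpace.measurableSet_generateFrom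
    refine ⟨{a}, fun _ => true, ?_⟩
    ext σ
    simp
  · apply MeasurableSpace.generateFrom_le
    rintro _ ⟨F, b, rfl⟩
    exact measurableSet_cyl F b

/-- a probability measure on spin configurations is determined by its spin correlations -/
theorem measure_ext_of_mono (μ μ' : Measure (V → Bool)) [IsProbabilityMeasure μ]
    [IsProbabilityMeasure μ']
    (h : ∀ M : Multiset V, ∫ σ, mono M σ ∂μ = ∫ σ, mono M σ ∂μ') : μ = μ' := by
  classical
  refine ext_of_generate_finite (cyl V) generateFrom_cyl isPiSystem_cyl ?_ (by simp)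
  rintro _ ⟨F, b, rfl⟩
  have hk := key_cyl μ μ' h b F 0
  have hind : wgt b F = Set.indicator {σ : V → Bool | ∀ y ∈ F, σ y = b y} 1 := by
    funext σ
    rw [wgt_eq]
    by_cases h1 : ∀ y ∈ F, σ y = b y
    · rw [if_pos h1, Set.indicator_of_mem (show σ ∈ {σ : V → Bool | ∀ y ∈ F, σ y = b y} from h1)]
      rfl
    · rw [if_neg h1,
        Set.indicator_of_notMem (show σ ∉ {σ : V → Bool | ∀ y ∈ F, σ y = b y} from h1)]
  have hm0 : ∀ σ : V → Bool, mono (0 : Multiset V) σ = 1 := fun σ => by simp [mono]
  simp only [hm0, one_mul] at hk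
  have e1 : ∫ σ, wgt b F σ ∂μ = μ.real {σ : V → Bool | ∀ y ∈ F, σ y = b y} := by
    rw [hind]
    exact integral_indicator_one (measurableSet_cyl F b)
  have e2 : ∫ σ, wgt b F σ ∂μ' = μ'.real {σ : V → Bool | ∀ y ∈ F, σ y = b y} := by
    rw [hind]
    exact integral_indicator_one (measurableSet_cyl F b)
  rw [e1, e2] at hk
  exact (ENNReal.toReal_eq_toReal_iff' (measure_ne_top μ _) (measure_ne_top μ' _)).1 hk

end Vale.Agent.Lib.P161
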