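import Vale.Agent.Lib.P161.Mono.Law

namespace Vale.Agent.Lib.P161

open MeasureTheory ProbabilityTheory

variable {V : Type*} {G : SimpleGraph V}

/-- the point one half of the unit interval -/
noncomputable def half : unitInterval := ⟨1 / 2, by constructor <;> norm_num⟩

/-- the constant field whose value is the fair bit read at `o₀` -/
noncomputable def PhiConst (o₀ : V) (U : V → unitInterval) : V → Bool :=
  fun _ => decide (U o₀ ≤ half)

/-- independent fair bits -/
noncomputable def PhiBit (U : V → unitInterval) : V → Bool :=
  fun v => decide (U v ≤ half)

end Vale.Agent.Lib.P161
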