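import Vale.Agent.Lib.P161.Ex.Const
import Vale.Agent.Lib.P161.Mono.Ball

namespace Vale.Agent.Lib.P161

open MeasureTheory ProbabilityTheory

variable {V : Type*} {G : SimpleGraph V}

/-- the free Ising measure exists for every parameter in `[0, 1]` -/
theorem exists_freeIsing {d : ℕ} (hG : IsRegTree d G) {θ : ℝ} (h0 : 0 ≤ θ) (h1 : θ ≤ 1) :
    ∃ μ : Measure (V → Bool), IsFreeIsing G θ μ := by
  have hfin := finBalls_of_regTree hG
  have : Countable V := countable_of_regTree hG
  obtain ⟨e, he⟩ := exists_injective_nat V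
  obtain ⟨o₀⟩ := hG.1.1.nonempty
  let s : unitInterval := ⟨Real.sqrt θ, Real.sqrt_nonneg θ, Real.sqrt_le_one.mpr h1⟩
  have hs : (s : ℝ) * s = θ := Real.mul_self_sqrt h0
  have hI := isFreeIsing_Psi (e := e) (s := s) hG.1 hfin he (measurable_PhiConst o₀)
    zero_le_one (isFreeIsing_PhiConst (G := G) o₀)
  rw [hs, mul_one] at hI
  exact ⟨_, hI⟩

end Vale.Agent.Lib.P161
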