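import Vale.Agent.Lib.P161.Ex.MonoObs
import Vale.Agent.Lib.P161.Ex.Cyl

namespace Vale.Agent.Lib.P161

open MeasureTheory ProbabilityTheory

variable {V : Type*} {G : SimpleGraph V}

theorem freeIsing_unique (hc : G.Connected) {θ : ℝ} (h0 : 0 ≤ θ) {μ μ' : Measure (V → Bool)}
    (hμ : IsFreeIsing G θ μ) (hμ' : IsFreeIsing G θ μ') : μ = μ' := by
  have h1 : IsProbabilityMeasure μ := hμ.1
  have h2 : IsProbabilityMeasure μ' := hμ'.1
  obtain ⟨o⟩ := hc.nonempty
  apply measure_ext_of_mono μ μ'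
  intro M
  obtain ⟨S, hS⟩ := mono_eq_obs hc o M
  simp_rw [hS]
  rw [moments_of_freeIsing hμ h0 o S, moments_of_freeIsing hμ' h0 o S]

end Vale.Agent.Lib.P161
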